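import Crest.Agent.R106.U.Main

/-! Row 106, block CL: the exterior field energy does not grow; `L²` bounds and `L²` continuity from uniform tails. -/

set_option autoImplicit false

noncomputable section

namespace Crest.Agent.R106.CL

open MeasureTheory Set Filter Topology Crest.AnalysisR.VecCalc3 Crest.AnalysisR.PDE.RVM Crest.Agent.R106.U

/-- a weight supported between a forward and a backward light cone -/
theorem exists_weight2 (a A T' : ℝ) : ∃ w : ℝ × R3 → ℝ, ContDiff ℝ 1 w ∧ (∀ p, 0 ≤ w p ∧ w p ≤ 1) ∧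
    (∀ t x, t ≤ T' → a + T' + 2 ≤ ‖x‖ → t + ‖x‖ ≤ A → w (t, x) = 1) ∧ (∀ t x, 0 ≤ t → A + 2 ≤ ‖x‖ → w (t, x) = 0) ∧
    (∀ t x, 0 ≤ t → ‖x‖ ≤ a → w (t, x) = 0) ∧
    ∀ t x, deriv (fun s => w (s, x)) t + ‖fderiv ℝ (fun y => w (t, y)) x‖ ≤ 0 := by
  obtain ⟨p, hp, p01, p1, p0, pn⟩ := exists_weight A
  obtain ⟨u, hu, u01, u1, u0, un⟩ := exists_weight (a + T')
  have hq : ContDiff ℝ 1 fun z : ℝ × R3 => u (T' - z.1, z.2) :=
    hu.comp ((contDiff_const.sub contDiff_fst).prodMk contDiff_snd)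
  refine ⟨fun z => p z * (1 - u (T' - z.1, z.2)), hp.mul (contDiff_const.sub hq), fun z => ⟨?_, ?_⟩,
    fun t x h1 h2 h3 => ?_, fun t x h1 h2 => ?_, fun t x h1 h2 => ?_, fun t x => ?_⟩
  · exact mul_nonneg (p01 _).1 (sub_nonneg.2 (u01 _).2)
  · exact mul_le_one₀ (p01 _).2 (sub_nonneg.2 (u01 _).2) (sub_le_self _ (u01 _).1)
  · simp only [p1 t x h3, u0 (T' - t) x (sub_nonneg.2 h1) h2, sub_zero, mul_one]
  · simp only [p0 t x h1 h2, zero_mul]
  · simp only [u1 (T' - t) x (by linarith), sub_self, mul_zero]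
  · have dt : ∀ {v : ℝ × R3 → ℝ}, ContDiff ℝ 1 v → ∀ r, HasDerivAt (fun s => v (s, x)) (deriv (fun s => v (s, x)) r) r :=
      fun hv r => ((hv.differentiable one_ne_zero _).comp r
        (differentiableAt_id.prodMk (differentiableAt_const x))).hasDerivAt
    have dx : ∀ {v : ℝ × R3 → ℝ}, ContDiff ℝ 1 v → ∀ r,
        HasFDerivAt (fun y => v (r, y)) (fderiv ℝ (fun y => v (r, y)) x) x :=
      fun hv r => ((hv.differentiable one_ne_zero _).comp x
        ((differentiableAt_const r).prodMk differentiableAt_id)).hasFDerivAt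
    have h1 : HasDerivAt (fun s => u (T' - s, x)) (deriv (fun s => u (s, x)) (T' - t) * (-1)) t :=
      HasDerivAt.comp (h := fun s : ℝ => T' - s) t (dt hu (T' - t)) ((hasDerivAt_id' t).const_sub T')
    have h2 := ((dt hp t).mul (h1.const_sub 1)).deriv
    have h3 := ((dx hp t).mul ((dx hu (T' - t)).const_sub 1)).fderiv
    have h2' : deriv (fun s => p (s, x) * (1 - u (T' - s, x))) t =
        deriv (fun s => p (s, x)) t * (1 - u (T' - t, x)) + p (t, x) * -(deriv (fun s => u (s, x)) (T' - t) * (-1)) := h2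
    have h3' : fderiv ℝ (fun y => p (t, y) * (1 - u (T' - t, y))) x =
        p (t, x) • -fderiv ℝ (fun y => u (T' - t, y)) x + (1 - u (T' - t, x)) • fderiv ℝ (fun y => p (t, y)) x := h3
    simp only
    rw [h2', h3']
    have a1 := (p01 (t, x)).1
    have a2 : 0 ≤ 1 - u (T' - t, x) := sub_nonneg.2 (u01 _).2
    have a3 := norm_add_le (p (t, x) • -fderiv ℝ (fun y => u (T' - t, y)) x)
      ((1 - u (T' - t, x)) • fderiv ℝ (fun y => p (t, y)) x)
    rw [norm_smul, norm_smul, norm_neg, Real.norm_of_nonneg a1, Real.norm_of_nonneg a2] at a3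
    have a4 := mul_nonpos_of_nonneg_of_nonpos a1 (un (T' - t) x)
    have a5 := mul_nonpos_of_nonneg_of_nonpos a2 (pn t x)
    nlinarith

/-- Gronwall -/
theorem gron_le {N : ℝ → ℝ} {T' : ℝ} (hc : ContinuousOn N (Icc 0 T'))
    (hd : ∀ t ∈ Ioo 0 T', ∃ D, HasDerivAt N D t ∧ D ≤ N t) : ∀ t ∈ Icc 0 T', N t ≤ Real.exp t * N 0 := by
  intro t ht
  have hder : ∀ s ∈ interior (Icc 0 T'), ∃ D, HasDerivAt (fun s => Real.exp (-s) * N s) D s ∧ D ≤ 0 := fun s hs => by
    rw [interior_Icc] at hs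
    obtain ⟨D, h1, h2⟩ := hd s hs
    refine ⟨_, ((hasDerivAt_id' s).neg).exp.mul h1, ?_⟩
    have := mul_le_mul_of_nonneg_left h2 (Real.exp_pos (-s)).le
    simp only [Pi.neg_apply]
    linarith
  have h := antitoneOn_of_deriv_nonpos (convex_Icc 0 T') (f := fun s => Real.exp (-s) * N s)
    ((by fun_prop : Continuous fun s : ℝ => Real.exp (-s)).continuousOn.mul hc)
    (fun s hs => (hder s hs).choose_spec.1.differentiableAt.differentiableWithinAt)
    (fun s hs => by rw [(hder s hs).choose_spec.1.deriv]; exact (hder s hs).choose_spec.2)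
    (left_mem_Icc.2 (ht.1.trans ht.2)) ht ht.1
  simp only [neg_zero, Real.exp_zero, one_mul] at h
  have h2 := mul_le_mul_of_nonneg_left h (Real.exp_pos t).le
  rwa [← mul_assoc, ← Real.exp_add, add_neg_cancel, Real.exp_zero, one_mul] at h2

variable {E B : ℝ × R3 → R3} {J : ℝ → R3 → R3} {T' a : ℝ}

/-- weighted energy inequality away from the current -/
theorem wt_energy (hE : ContDiff ℝ 1 E) (hB : ContDiff ℝ 1 B)
    (h1 : ∀ t ∈ Ioo 0 T', ∀ x i, deriv (fun s => E (s, x) i) t - curl3 (fun y => B (t, y)) x i = -J t x i)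
    (h2 : ∀ t ∈ Ioo 0 T', ∀ x i, deriv (fun s => B (s, x) i) t + curl3 (fun y => E (t, y)) x i = 0)
    (hJ : ∀ t ∈ Ioo 0 T', ∀ x, a < ‖x‖ → J t x = 0) {w : ℝ × R3 → ℝ} {A : ℝ}
    (hw : ContDiff ℝ 1 w) (h01 : ∀ p, 0 ≤ w p) (hA : ∀ t x, 0 ≤ t → A ≤ ‖x‖ → w (t, x) = 0)
    (ha : ∀ t x, 0 ≤ t → ‖x‖ ≤ a → w (t, x) = 0)
    (hn : ∀ t x, deriv (fun s => w (s, x)) t + ‖fderiv ℝ (fun y => w (t, y)) x‖ ≤ 0) :
    ∀ t ∈ Icc 0 T', ∫ x, w (t, x) * (‖E (t, x)‖ ^ 2 + ‖B (t, x)‖ ^ 2) ≤
      Real.exp t * ∫ x, w (0, x) * (‖E (0, x)‖ ^ 2 + ‖B (0, x)‖ ^ 2) := by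
  have hT : T' < T' + 1 := lt_add_one _
  have hF : ContDiffOn ℝ 1 (fun p : ℝ × R3 => w p * (‖E p‖ ^ 2 + ‖B p‖ ^ 2)) (Ico 0 (T' + 1) ×ˢ univ) :=
    (hw.mul ((hE.norm_sq ℝ).add (hB.norm_sq ℝ))).contDiffOn
  have hF0 : ∀ s ∈ Icc 0 T', ∀ x ∉ Metric.closedBall (0 : R3) A, w (s, x) * (‖E (s, x)‖ ^ 2 + ‖B (s, x)‖ ^ 2) = 0 :=
    fun s hs x hx => by
      have : A < ‖x‖ := by simpa using hx
      simp [hA s x hs.1 this.le]
  refine gron_le (N := fun t => ∫ x, w (t, x) * (‖E (t, x)‖ ^ 2 + ‖B (t, x)‖ ^ 2))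
    (energy_cont volume hT hF (isCompact_closedBall _ _) hF0) fun t ht => ?_
  refine ⟨_, energy_deriv (volume : Measure R3) hT hF (isCompact_closedBall (0 : R3) A) hF0 ht, ?_⟩
  have sE : ContDiff ℝ 1 fun y => E (t, y) := hE.comp (contDiff_const.prodMk contDiff_id)
  have sB : ContDiff ℝ 1 fun y => B (t, y) := hB.comp (contDiff_const.prodMk contDiff_id)
  have sw : ContDiff ℝ 1 fun x : R3 => w (t, x) := hw.comp (contDiff_const.prodMk contDiff_id)
  have hwd : ∀ x, HasDerivAt (fun s => w (s, x)) (fderiv ℝ w (t, x) (1, 0)) t := fun x =>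
    (hw.differentiable one_ne_zero (t, x)).hasFDerivAt.comp_hasDerivAt t
      ((hasDerivAt_id t).prodMk (hasDerivAt_const t x))
  have hwt : Continuous fun x : R3 => deriv (fun s => w (s, x)) t := by
    simp only [fun x => (hwd x).deriv]
    exact ((hw.continuous_fderiv one_ne_zero).comp (continuous_const.prodMk continuous_id)).clm_apply continuous_const
  have hct : HasCompactSupport fun x : R3 => deriv (fun s => w (s, x)) t := by
    refine HasCompactSupport.intro (isCompact_closedBall (0 : R3) A) fun x hx => ?_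
    have hx' : A < ‖x‖ := by simpa using hx
    have : (fun s => w (s, x)) =ᶠ[nhds t] fun _ => 0 := by
      filter_upwards [Ioi_mem_nhds ht.1] with s hs using hA s x (le_of_lt hs) hx'.le
    rw [this.deriv_eq]; simp
  have hc : HasCompactSupport fun x : R3 => w (t, x) := by
    refine HasCompactSupport.intro (isCompact_closedBall (0 : R3) A) fun x hx => ?_
    have hx' : A < ‖x‖ := by simpa using hx
    exact hA t x ht.1.le hx'.le
  have hle := max_le (j := fun _ => 0) sE sB continuous_const sw hc (fun x => h01 _) hwt hct (fun x => hn t x)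
  simp only [norm_zero, ne_eq, OfNat.ofNat_ne_zero, not_false_eq_true, zero_pow, mul_zero, integral_zero, add_zero,
    sub_zero] at hle
  refine le_trans (le_of_eq ?_) hle
  refine integral_congr_ae (Filter.Eventually.of_forall fun x => ?_)
  have dE : DifferentiableAt ℝ (fun s => E (s, x)) t :=
    (hE.differentiable one_ne_zero _).comp t (differentiableAt_id.prodMk (differentiableAt_const x))
  have dB : DifferentiableAt ℝ (fun s => B (s, x)) t :=
    (hB.differentiable one_ne_zero _).comp t (differentiableAt_id.prodMk (differentiableAt_const x))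
  have he : HasDerivAt (fun s => E (s, x)) (curl3 (fun y => B (t, y)) x - J t x) t := by
    refine dE.hasDerivAt.congr_deriv ?_
    ext i
    have c1 := h1 t ht x i
    rw [mainb_vec dE] at c1
    simp only [PiLp.sub_apply]
    linarith
  have hb : HasDerivAt (fun s => B (s, x)) (-curl3 (fun y => E (t, y)) x) t := by
    refine dB.hasDerivAt.congr_deriv ?_
    ext i
    have c1 := h2 t ht x i
    rw [mainb_vec dB] at c1
    simp only [PiLp.neg_apply]
    linarith
  have hall := ((hwd x).mul (he.norm_sq.add hb.norm_sq)).deriv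
  simp only [(hwd x).deriv]
  refine Eq.trans hall ?_
  by_cases hx : ‖x‖ ≤ a
  · simp [ha t x ht.1.le hx]
  · simp [hJ t ht x (not_le.1 hx)]

/-- the exterior energy at time `t` is controlled by the exterior energy at time `0` -/
theorem tail_le (hE : ContDiff ℝ 1 E) (hB : ContDiff ℝ 1 B)
    (h1 : ∀ t ∈ Ioo 0 T', ∀ x i, deriv (fun s => E (s, x) i) t - curl3 (fun y => B (t, y)) x i = -J t x i)
    (h2 : ∀ t ∈ Ioo 0 T', ∀ x i, deriv (fun s => B (s, x) i) t + curl3 (fun y => E (t, y)) x i = 0)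
    (hJ : ∀ t ∈ Ioo 0 T', ∀ x, a < ‖x‖ → J t x = 0) {t : ℝ} (ht : t ∈ Icc 0 T') :
    ∫⁻ x in {x : R3 | a + T' + 2 ≤ ‖x‖}, ENNReal.ofReal (‖E (t, x)‖ ^ 2 + ‖B (t, x)‖ ^ 2) ≤
      ENNReal.ofReal (Real.exp T') * ∫⁻ x in {x : R3 | a ≤ ‖x‖}, ENNReal.ofReal (‖E (0, x)‖ ^ 2 + ‖B (0, x)‖ ^ 2) := by
  have hU : {x : R3 | a + T' + 2 ≤ ‖x‖} = ⋃ n : ℕ, {x : R3 | a + T' + 2 ≤ ‖x‖ ∧ ‖x‖ ≤ n} := by
    ext x
    simp only [mem_ofPred_eq, mem_iUnion]
    refine ⟨fun h => ?_, fun ⟨_, h, _⟩ => h⟩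
    obtain ⟨n, hn⟩ := exists_nat_ge ‖x‖
    exact ⟨n, h, hn⟩
  have hmono : Monotone fun n : ℕ => {x : R3 | a + T' + 2 ≤ ‖x‖ ∧ ‖x‖ ≤ n} := fun m n hmn x hx =>
    And.intro hx.1 (hx.2.trans (Nat.cast_le.2 hmn))
  rw [hU, setLIntegral_iUnion_of_directed _ hmono.directed_le]
  refine iSup_le fun n => ?_
  obtain ⟨w, hw, h01, w1, wA, wa, wn⟩ := exists_weight2 a (T' + n) T'
  have key := wt_energy hE hB h1 h2 hJ hw (fun p => (h01 p).1) wA wa wn t ht
  have hi : ∀ s, 0 ≤ s → Integrable fun x => w (s, x) * (‖E (s, x)‖ ^ 2 + ‖B (s, x)‖ ^ 2) := fun s hs => by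
    have hc : Continuous fun x => w (s, x) * (‖E (s, x)‖ ^ 2 + ‖B (s, x)‖ ^ 2) := by
      have := hw.continuous
      have := hE.continuous
      have := hB.continuous
      fun_prop
    refine hc.integrable_of_hasCompactSupport
      (HasCompactSupport.intro (isCompact_closedBall (0 : R3) (T' + n + 2)) fun x hx => ?_)
    have hx' : T' + n + 2 < ‖x‖ := by simpa using hx
    simp [wA s x hs hx'.le]
  have hp : ∀ s x, 0 ≤ w (s, x) * (‖E (s, x)‖ ^ 2 + ‖B (s, x)‖ ^ 2) := fun s x => mul_nonneg (h01 _).1 (by positivity)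
  have hm1 : MeasurableSet {x : R3 | a + T' + 2 ≤ ‖x‖ ∧ ‖x‖ ≤ n} :=
    (measurableSet_le measurable_const measurable_norm).inter (measurableSet_le measurable_norm measurable_const)
  have hm2 : MeasurableSet {x : R3 | a ≤ ‖x‖} := measurableSet_le measurable_const measurable_norm
  calc ∫⁻ x in {x : R3 | a + T' + 2 ≤ ‖x‖ ∧ ‖x‖ ≤ n}, ENNReal.ofReal (‖E (t, x)‖ ^ 2 + ‖B (t, x)‖ ^ 2)
      = ∫⁻ x in {x : R3 | a + T' + 2 ≤ ‖x‖ ∧ ‖x‖ ≤ n},
          ENNReal.ofReal (w (t, x) * (‖E (t, x)‖ ^ 2 + ‖B (t, x)‖ ^ 2)) := by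
        refine setLIntegral_congr_fun hm1 fun x hx => ?_
        simp only [w1 t x ht.2 hx.1 (add_le_add ht.2 hx.2), one_mul]
    _ ≤ ∫⁻ x, ENNReal.ofReal (w (t, x) * (‖E (t, x)‖ ^ 2 + ‖B (t, x)‖ ^ 2)) := setLIntegral_le_lintegral _ _
    _ = ENNReal.ofReal (∫ x, w (t, x) * (‖E (t, x)‖ ^ 2 + ‖B (t, x)‖ ^ 2)) :=
        (ofReal_integral_eq_lintegral_ofReal (hi t ht.1) (ae_of_all _ (hp t))).symm
    _ ≤ ENNReal.ofReal (Real.exp T' * ∫ x, w (0, x) * (‖E (0, x)‖ ^ 2 + ‖B (0, x)‖ ^ 2)) :=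
        ENNReal.ofReal_le_ofReal (key.trans (mul_le_mul_of_nonneg_right (Real.exp_le_exp.2 ht.2) (integral_nonneg (hp 0))))
    _ = ENNReal.ofReal (Real.exp T') * ∫⁻ x, ENNReal.ofReal (w (0, x) * (‖E (0, x)‖ ^ 2 + ‖B (0, x)‖ ^ 2)) := by
        rw [ENNReal.ofReal_mul (Real.exp_pos _).le, ofReal_integral_eq_lintegral_ofReal (hi 0 le_rfl) (ae_of_all _ (hp 0))]
    _ ≤ _ := by
        refine mul_le_mul_right ?_ _
        rw [← lintegral_indicator hm2]
        refine lintegral_mono fun x => ?_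
        by_cases hx : x ∈ {x : R3 | a ≤ ‖x‖}
        · rw [indicator_of_mem hx]
          exact ENNReal.ofReal_le_ofReal (mul_le_of_le_one_left (by positivity) (h01 _).2)
        · have : ‖x‖ ≤ a := (not_le.1 hx).le
          simp [wa 0 x le_rfl this]

/-- tails of an integrable function -/
theorem tail_zero {g : R3 → ℝ} (hg : Integrable g) (hm : Measurable g) :
    Tendsto (fun n : ℕ => ∫⁻ x in {x : R3 | (n : ℝ) ≤ ‖x‖}, ENNReal.ofReal (g x)) atTop (𝓝 0) := by
  have hm2 : ∀ n : ℕ, MeasurableSet {x : R3 | (n : ℝ) ≤ ‖x‖} := fun n => measurableSet_le measurable_const measurable_norm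
  simp only [fun n => (lintegral_indicator (μ := volume) (hm2 n) fun x => ENNReal.ofReal (g x)).symm]
  have h := tendsto_lintegral_filter_of_dominated_convergence (μ := volume) (l := atTop)
    (F := fun (n : ℕ) (x : R3) => {x : R3 | (n : ℝ) ≤ ‖x‖}.indicator (fun x => ENNReal.ofReal (g x)) x) (f := fun _ => 0)
    (fun x => ENNReal.ofReal (g x)) (Eventually.of_forall fun n => hm.ennreal_ofReal.indicator (hm2 n))
    (Eventually.of_forall fun n => ae_of_all _ fun x => indicator_le_self _ _ x) hg.lintegral_lt_top.ne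
    (ae_of_all _ fun x => by
      refine tendsto_const_nhds.congr' ?_
      filter_upwards [tendsto_natCast_atTop_atTop.eventually_gt_atTop ‖x‖] with n hn
      rw [indicator_of_notMem (by simpa using hn)])
  simpa using h

/-- `L²` membership and `L²` continuity from uniformly small tails -/
theorem l2_of_tail {u : ℝ × R3 → R3} (hu : Continuous u) {T' : ℝ}
    (h : ∀ ε : ENNReal, 0 < ε → ∃ r : ℝ, ∀ t ∈ Icc 0 T', ∫⁻ x in {x : R3 | r ≤ ‖x‖}, ENNReal.ofReal (‖u (t, x)‖ ^ 2) ≤ ε)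
    {t : ℝ} (ht : t ∈ Icc 0 T') :
    MemLp (fun x => u (t, x)) 2 volume ∧
      Tendsto (fun s => eLpNorm ((fun x => u (s, x)) - fun x => u (t, x)) 2 volume) (𝓝[Icc 0 T'] t) (𝓝 0) := by
  have hs : ∀ s, Continuous fun x => u (s, x) := fun s => hu.comp (continuous_const.prodMk continuous_id)
  have hm2 : ∀ r : ℝ, MeasurableSet {x : R3 | r ≤ ‖x‖} := fun r => measurableSet_le measurable_const measurable_norm
  have hc : ∀ r : ℝ, {x : R3 | r ≤ ‖x‖}ᶜ ⊆ Metric.closedBall 0 r := fun r x hx => by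
    have : ‖x‖ < r := by simpa using hx
    simpa using this.le
  constructor
  · obtain ⟨r, hr⟩ := h 1 one_pos
    rw [memLp_two_iff_integrable_sq_norm (hs t).aestronglyMeasurable]
    have hn : Continuous fun x => ‖u (t, x)‖ ^ 2 := (hs t).norm.pow 2
    rw [← integrableOn_univ, ← union_compl_self {x : R3 | r ≤ ‖x‖}]
    refine IntegrableOn.union ⟨hn.aestronglyMeasurable, ?_⟩
      ((hn.continuousOn.integrableOn_compact (isCompact_closedBall 0 r)).mono_set (hc r))
    rw [hasFiniteIntegral_iff_ofReal (ae_of_all _ fun x => by positivity)]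
    exact (hr t ht).trans_lt ENNReal.one_lt_top
  · have h0 : Tendsto (fun s => ∫⁻ x, ENNReal.ofReal (‖u (s, x) - u (t, x)‖ ^ 2)) (𝓝[Icc 0 T'] t) (𝓝 0) := by
      refine ENNReal.tendsto_nhds_zero.2 fun ε hε => ?_
      have hε5 : 0 < ε / 5 := ENNReal.div_pos hε.ne' (by norm_num)
      obtain ⟨r, hr⟩ := h (ε / 5) hε5
      obtain ⟨M, hM⟩ := ((isCompact_Icc (a := (0 : ℝ)) (b := T')).prod (isCompact_closedBall (0 : R3) r)).exists_bound_of_continuousOn
        hu.continuousOn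
      have hb := tendsto_lintegral_filter_of_dominated_convergence
        (μ := volume.restrict (Metric.closedBall (0 : R3) r)) (l := 𝓝[Icc 0 T'] t)
        (F := fun (s : ℝ) (x : R3) => ENNReal.ofReal (‖u (s, x) - u (t, x)‖ ^ 2)) (f := fun _ => 0)
        (fun _ => ENNReal.ofReal ((M + M) ^ 2))
        (Eventually.of_forall fun s => (((hs s).sub (hs t)).norm.pow 2).measurable.ennreal_ofReal)
        (by
          filter_upwards [self_mem_nhdsWithin] with s hs'
          filter_upwards [ae_restrict_mem measurableSet_closedBall] with x hx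
          refine ENNReal.ofReal_le_ofReal (pow_le_pow_left₀ (norm_nonneg _) ?_ 2)
          exact (norm_sub_le _ _).trans (add_le_add (hM (s, x) ⟨hs', hx⟩) (hM (t, x) ⟨ht, hx⟩)))
        (by
          rw [setLIntegral_const]
          exact ENNReal.mul_ne_top ENNReal.ofReal_ne_top (isCompact_closedBall (0 : R3) r).measure_lt_top.ne)
        (ae_of_all _ fun x => by
          have hx : Continuous fun s : ℝ => ENNReal.ofReal (‖u (s, x) - u (t, x)‖ ^ 2) :=
            ENNReal.continuous_ofReal.comp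
              ((((hu.comp (continuous_id.prodMk continuous_const)).sub continuous_const).norm).pow 2)
          have := (hx.tendsto t).mono_left (nhdsWithin_le_nhds (s := Icc 0 T'))
          simpa using this)
      simp only [lintegral_const, zero_mul] at hb
      filter_upwards [self_mem_nhdsWithin, ENNReal.tendsto_nhds_zero.1 hb (ε / 5) hε5] with s hs' hb'
      rw [← lintegral_add_compl _ (hm2 r)]
      have e1 : ∫⁻ x in {x : R3 | r ≤ ‖x‖}, ENNReal.ofReal (‖u (s, x) - u (t, x)‖ ^ 2) ≤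
          2 * (ε / 5) + 2 * (ε / 5) := by
        calc _ ≤ ∫⁻ x in {x : R3 | r ≤ ‖x‖},
              (2 * ENNReal.ofReal (‖u (s, x)‖ ^ 2) + 2 * ENNReal.ofReal (‖u (t, x)‖ ^ 2)) := by
              refine lintegral_mono fun x => ?_
              have e : ∀ c : ℝ, 2 * ENNReal.ofReal c = ENNReal.ofReal (2 * c) := fun c => by
                rw [ENNReal.ofReal_mul zero_le_two]; simp
              rw [e, e, ← ENNReal.ofReal_add (by positivity) (by positivity)]
              refine ENNReal.ofReal_le_ofReal ?_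
              have := pow_le_pow_left₀ (norm_nonneg _) (norm_sub_le (u (s, x)) (u (t, x))) 2
              nlinarith [sq_nonneg (‖u (s, x)‖ - ‖u (t, x)‖)]
          _ = 2 * (∫⁻ x in {x : R3 | r ≤ ‖x‖}, ENNReal.ofReal (‖u (s, x)‖ ^ 2)) +
              2 * ∫⁻ x in {x : R3 | r ≤ ‖x‖}, ENNReal.ofReal (‖u (t, x)‖ ^ 2) := by
              have m : ∀ s, Measurable fun x => ENNReal.ofReal (‖u (s, x)‖ ^ 2) := fun s =>
                ((hs s).norm.pow 2).measurable.ennreal_ofReal
              rw [lintegral_add_left ((m s).const_mul 2), lintegral_const_mul _ (m s), lintegral_const_mul _ (m t)]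
          _ ≤ _ := by
              gcongr
              · exact hr s hs'
              · exact hr t ht
      have e2 := (lintegral_mono_set (μ := volume)
        (f := fun x => ENNReal.ofReal (‖u (s, x) - u (t, x)‖ ^ 2)) (hc r)).trans hb'
      refine (add_le_add e1 e2).trans (le_of_eq ?_)
      have e3 : (5 : ENNReal) * (ε / 5) = ε := ENNReal.mul_div_cancel (by norm_num) (by norm_num)
      calc 2 * (ε / 5) + 2 * (ε / 5) + ε / 5 = 5 * (ε / 5) := by ring
        _ = ε := e3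
    have h1 := ((ENNReal.continuous_rpow_const (y := (1 / 2 : ℝ))).tendsto 0).comp h0
    rw [ENNReal.zero_rpow_of_pos (by norm_num)] at h1
    refine h1.congr fun s => ?_
    rw [eLpNorm_eq_lintegral_rpow_enorm_toReal two_ne_zero ENNReal.ofNat_ne_top]
    simp only [Function.comp, ENNReal.toReal_ofNat, Pi.sub_apply]
    congr 1
    refine lintegral_congr fun x => ?_
    rw [ENNReal.ofReal_pow (norm_nonneg _), ofReal_norm]
    norm_cast

end Crest.Agent.R106.CL
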