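import Crest.Agent.R106.Basic
import Crest.Agent.R106.CL.Ext

/-! Row 106, block CL: a smooth solution is a classical solution. -/

set_option autoImplicit false

noncomputable section

namespace Crest.Agent.R106

open MeasureTheory Set Filter Topology Crest.AnalysisR.VecCalc3 Crest.AnalysisR.PDE.RVM
open scoped ContDiff

/-- the transported density has bounded support on every compact time interval -/
theorem Lag.supp {f₀ : P6 → ℝ} {b : ℝ × P6 → P6} (L : Lag f₀ b) (hc : HasCompactSupport f₀) (T₀ T₁ : ℝ) :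
    ∃ R : ℝ, ∀ t ∈ Icc T₀ T₁, ∀ x v : R3, (R < ‖x‖ ∨ R < ‖v‖) → L.f (t, x, v) = 0 := by
  obtain ⟨R, hR⟩ := ((isCompact_Icc (a := T₀) (b := T₁)).prod hc.isCompact).exists_bound_of_continuousOn
    L.smoothZ.continuous.continuousOn
  refine ⟨R, fun t ht x v hxv => ?_⟩
  obtain ⟨z, hz⟩ := (L.bij t).2 (x, v)
  rw [← hz, L.trans]
  by_contra h0
  have h1 := hR (t, z) ⟨ht, subset_tsupport _ h0⟩
  simp only [hz, Prod.norm_mk, max_le_iff] at h1
  rcases hxv with h | h
  · exact absurd h1.1 (not_le.2 h)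
  · exact absurd h1.2 (not_le.2 h)

theorem s_cl : S_CL := by
  intro f₀ E₀ B₀ hd T s
  obtain ⟨-, -, hc, sE, sB, -, mE, mB, -, -⟩ := hd
  have hE : ContDiff ℝ 1 s.E := s.hE.1.of_le (by exact_mod_cast le_top)
  have hB : ContDiff ℝ 1 s.B := s.hB.1.of_le (by exact_mod_cast le_top)
  have hf : ContDiff ℝ 1 s.L.f := s.L.smooth.of_le (by exact_mod_cast le_top)
  refine ⟨hf.contDiffOn, hE.contDiffOn, hB.contDiffOn, funext fun x => funext fun v => s.L.init (x, v),
    funext s.initE, funext s.initB, fun t h0 h1 x => s.eqs t h0.le h1.le x, fun T' _ _ => s.L.supp hc 0 T', fun t ht => ?_⟩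
  obtain ⟨T', htT, hT⟩ := exists_between ht.2
  have ht' : t ∈ Icc 0 T' := ⟨ht.1, htT.le⟩
  obtain ⟨R, hR⟩ := s.L.supp hc 0 T'
  have hi : Integrable fun x => ‖s.E (0, x)‖ ^ 2 + ‖s.B (0, x)‖ ^ 2 := by
    simp only [s.initE, s.initB]
    exact ((memLp_two_iff_integrable_sq_norm mE.1).1 mE).add ((memLp_two_iff_integrable_sq_norm mB.1).1 mB)
  have hm : Measurable fun x => ‖s.E (0, x)‖ ^ 2 + ‖s.B (0, x)‖ ^ 2 := by
    simp only [s.initE, s.initB]
    exact ((sE.continuous.norm.pow 2).add (sB.continuous.norm.pow 2)).measurable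
  have h0 := ENNReal.Tendsto.const_mul (a := ENNReal.ofReal (Real.exp T')) (CL.tail_zero hi hm)
    (Or.inr ENNReal.ofReal_ne_top)
  rw [mul_zero] at h0
  have key : ∀ ε : ENNReal, 0 < ε → ∃ r : ℝ, ∀ t ∈ Icc 0 T',
      ∫⁻ x in {x : R3 | r ≤ ‖x‖}, ENNReal.ofReal (‖s.E (t, x)‖ ^ 2 + ‖s.B (t, x)‖ ^ 2) ≤ ε := fun ε hε => by
    obtain ⟨n, h1, h2⟩ := ((ENNReal.tendsto_nhds_zero.1 h0 ε hε).and
      (tendsto_natCast_atTop_atTop.eventually_ge_atTop R)).exists
    refine ⟨n + T' + 2, fun r hr => le_trans ?_ h1⟩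
    refine CL.tail_le (J := currentDensity (cur3 s.L.f)) hE hB
      (fun q hq x => (s.eqs q hq.1.le (hq.2.trans hT).le x).2.1)
      (fun q hq x => (s.eqs q hq.1.le (hq.2.trans hT).le x).2.2.1) (fun q hq x hx => ?_) hr
    simp [currentDensity, cur3, fun v => hR q ⟨hq.1.le, hq.2.le⟩ x v (Or.inl (h2.trans_lt hx))]
  have kE := CL.l2_of_tail hE.continuous (fun ε hε => (key ε hε).imp fun r hr q hq => le_trans
    (lintegral_mono fun x => ENNReal.ofReal_le_ofReal (le_add_of_nonneg_right (sq_nonneg _))) (hr q hq)) ht'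
  have kB := CL.l2_of_tail hB.continuous (fun ε hε => (key ε hε).imp fun r hr q hq => le_trans
    (lintegral_mono fun x => ENNReal.ofReal_le_ofReal (le_add_of_nonneg_left (sq_nonneg _))) (hr q hq)) ht'
  have hle : 𝓝[Ico 0 T] t ≤ 𝓝[Icc 0 T'] t := by
    refine nhdsWithin_le_of_mem ?_
    filter_upwards [self_mem_nhdsWithin, mem_nhdsWithin_of_mem_nhds (Iio_mem_nhds htT)] with q h1 h2
    exact ⟨h1.1, le_of_lt h2⟩
  exact ⟨kE.1, kB.1, kE.2.mono_left hle, kB.2.mono_left hle⟩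

end Crest.Agent.R106
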